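import Vale.Agent.Snaky.P3.Tbl

namespace Vale.Agent.Snaky.P3

theorem ck1088 : checkRange tbl 20834 15 = 0 := by decide +kernel
theorem ck1089 : checkRange tbl 20849 5 = 0 := by decide +kernel
theorem ck1090 : checkRange tbl 20854 6 = 0 := by decide +kernel
theorem ck1091 : checkRange tbl 20860 20 = 0 := by decide +kernel
theorem ck1092 : checkRange tbl 20880 2 = 0 := by decide +kernel
theorem ck1093 : checkRange tbl 20882 7 = 0 := by decide +kernel
theorem ck1094 : checkRange tbl 20889 4 = 0 := by decide +kernel
theorem ck1095 : checkRange tbl 20893 2 = 0 := by decide +kernel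

theorem rng17 : RangeOK tbl 20834 61 := RangeOK.join (RangeOK.join (RangeOK.join (RangeOK.of_check ck1088) (RangeOK.of_check ck1089) (Eq.refl 20849)) (RangeOK.join (RangeOK.of_check ck1090) (RangeOK.of_check ck1091) (Eq.refl 20860)) (Eq.refl 20854)) (RangeOK.join (RangeOK.join (RangeOK.of_check ck1092) (RangeOK.of_check ck1093) (Eq.refl 20882)) (RangeOK.join (RangeOK.of_check ck1094) (RangeOK.of_check ck1095) (Eq.refl 20893)) (Eq.refl 20889)) (Eq.refl 20880)

end Vale.Agent.Snaky.P3
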