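import Vale.Agent.Snaky.Cert
import Vale.Agent.Snaky.P3.C0
import Vale.Agent.Snaky.P3.C1
import Vale.Agent.Snaky.P3.C2
import Vale.Agent.Snaky.P3.C3
import Vale.Agent.Snaky.P3.C4
import Vale.Agent.Snaky.P3.C5
import Vale.Agent.Snaky.P3.C6
import Vale.Agent.Snaky.P3.C7
import Vale.Agent.Snaky.P3.C8
import Vale.Agent.Snaky.P3.C9
import Vale.Agent.Snaky.P3.C10
import Vale.Agent.Snaky.P3.C11
import Vale.Agent.Snaky.P3.C12
import Vale.Agent.Snaky.P3.C13
import Vale.Agent.Snaky.P3.C14
import Vale.Agent.Snaky.P3.C15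
import Vale.Agent.Snaky.P3.C16
import Vale.Agent.Snaky.P3.C17

namespace Vale.Agent.Snaky.P3

theorem allOK : RangeOK tbl 0 20895 := RangeOK.join (RangeOK.join (RangeOK.join (RangeOK.join (rng0) (rng1) (Eq.refl 1231)) (RangeOK.join (rng2) (rng3) (Eq.refl 3790)) (Eq.refl 2451)) (RangeOK.join (RangeOK.join (rng4) (rng5) (Eq.refl 6410)) (RangeOK.join (rng6) (RangeOK.join (rng7) (rng8) (Eq.refl 10132)) (Eq.refl 8946)) (Eq.refl 7524)) (Eq.refl 4960)) (RangeOK.join (RangeOK.join (RangeOK.join (rng9) (rng10) (Eq.refl 12693)) (RangeOK.join (rng11) (rng12) (Eq.refl 15152)) (Eq.refl 13740)) (RangeOK.join (RangeOK.join (rng13) (rng14) (Eq.refl 17463)) (RangeOK.join (rng15) (RangeOK.join (rng16) (rng17) (Eq.refl 20834)) (Eq.refl 19884)) (Eq.refl 18726)) (Eq.refl 16325)) (Eq.refl 11316)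

theorem allSem : ∀ j < 20895, (tbl j).Sem :=
  sem_all (fun i hi => allOK i (Nat.zero_le _) (by omega))

/-- The statement in the frame of the certificate. -/
theorem frameWin : MakerWinsWithin (tbl 20894).depth {((8 : ℤ), (11 : ℤ))} {((9 : ℤ), (11 : ℤ))} := by
  have hs := allSem 20894 (by omega)
  have hk : IsM (tbl 20894).kind := by
    show Nat.testBit 11 (tbl 20894).kind = true
    decide +kernel
  have hM : (tbl 20894).M = Nat.shiftLeft 1 712 := by decide +kernel
  have hU : (tbl 20894).U.testBit 713 = false := by decide +kernel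
  have hcs : dec 712 = ((8 : ℤ), (11 : ℤ)) := by decide
  have hcb : dec 713 = ((9 : ℤ), (11 : ℤ)) := by decide
  refine hs.2.2.2.1 hk _ _ ?_ ?_
  · intro c hc
    rw [hM, testBit_pow2] at hc
    have h1 : 712 = c := by simpa using hc
    rw [← h1, hcs]
    exact Finset.mem_singleton_self _
  · intro c hc hmem
    exfalso
    have h1 : dec c = dec 713 := by
      rw [hcb]; exact Finset.mem_singleton.mp hmem
    have h2 := dec_inj h1
    rw [h2, hU] at hc
    exact absurd hc (by simp)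

/-- The statement with Maker's first stone at the origin and Breaker's reply at `(1, 0)`. -/
theorem win : MakerWinsWithin (tbl 20894).depth {((0 : ℤ), (0 : ℤ))} {((1 : ℤ), (0 : ℤ))} := by
  let g : Iso := ⟨false, 1, 1, ((-8 : ℤ), (-11 : ℤ)), Or.inl rfl, Or.inl rfl⟩
  have h2 := MakerWinsWithin.image g _ _ _ frameWin
  simp only [Finset.image_singleton] at h2
  have h3 : g.f ((8 : ℤ), (11 : ℤ)) = ((0 : ℤ), (0 : ℤ)) := by
    simp [g, Iso.f, place]
  have h4 : g.f ((9 : ℤ), (11 : ℤ)) = ((1 : ℤ), (0 : ℤ)) := by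
    simp [g, Iso.f, place]
  rw [h3, h4] at h2
  exact h2

theorem win_depth : (tbl 20894).depth = 19 := by decide +kernel

end Vale.Agent.Snaky.P3
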